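import Vale.Agent.P233.N2.RA.IfST
import Vale.Agent.P233.H47.RS9
import Vale.Agent.P233.H883.EntW6

/-! P233, stage 3 (3b), Theorem N with a density function: block S25 from block S4 (port of
H47/RS7 - RS9, helper47, helper883). -/

set_option linter.all false

open MeasureTheory Filter Topology Set
open scoped ENNReal NNReal

universe u

namespace Vale.Agent.P233.N2.H883

open Vale.Agent.P233.N2.RA Vale.Agent.P233.H47 Vale.Agent.P233.H883.EntW

variable {M : Type u} [MetricSpace M] [ProperSpace M] [MeasurableSpace M] [BorelSpace M]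
  {m : Measure M} {n : ℕ} {K δ : ℝ}
  {θ : M → ℝ}

theorem ga_one_pos (n : ℕ) : 0 < ga n 1 := by
  have h2 : 0 < Real.Gamma ((n : ℝ) / 2 + 1) := Real.Gamma_pos_of_pos (by positivity)
  unfold ga
  positivity

theorem ga_mul (n : ℕ) (c : ℝ) : ga n c = c * ga n 1 := by
  unfold ga; ring

theorem KH_mul (c s : ℝ) (x y : M) : KH n K c s x y = c⁻¹ * KH n K 1 s x y := by
  unfold KH
  rw [ga_mul n c, mul_inv]
  ring

theorem tht_eq (η s : ℝ) (x : M) :
    tht m n K (θ x) η s x = (θ x)⁻¹ * H47.th m (ga n 1) n (aK K) (bK n K) η s x := by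
  unfold H47.th tht
  rw [kk_eq, integral_indicator Metric.isOpen_ball.measurableSet, ← integral_const_mul]
  refine integral_congr_ae (Eventually.of_forall fun y => ?_)
  exact KH_mul _ _ _ _

theorem kn_mul {a s η : ℝ} (ha : a ≠ 0) (x y : M) :
    kn m (ga n 1) n (aK K) (bK n K) η s x y
      = (a⁻¹ * H47.th m (ga n 1) n (aK K) (bK n K) η s x)⁻¹ * (Metric.ball x η).indicator
        (fun y => KH n K a s x y) y := by
  unfold kn
  rw [kk_eq, mul_inv, inv_inv]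
  by_cases hy : y ∈ Metric.ball x η
  · rw [indicator_of_mem hy, indicator_of_mem hy, KH_mul a]
    field_simp
  · rw [indicator_of_notMem hy, indicator_of_notMem hy]
    simp

theorem S1_of [SigmaFinite m] (hIn : InS m n K θ δ) {φ ψ : M → ℝ} (hadm : Vale.Agent.P233.RA.Adm δ φ ψ) {T : ℝ}
    (hT : 0 < T) (hT1 : T ≤ 1) : S1w m θ (ga n 1) n (aK K) (bK n K) φ ψ T := by
  intro F H hF hH hF0 hH0 hFC hHC hFs hHs hF1 hH1
  obtain ⟨f, f1, f2, f3, f4⟩ := sqrt_cls hF hF0 hF1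
  obtain ⟨h, h1, h2, h3, h4⟩ := sqrt_cls hH hH0 hH1
  have hle : ∀ x y, φ x + ψ y ≤ dist x y ^ 2 / 2 := fun x y =>
    (hadm.le x y).trans (min_le_left _ _)
  have key := hIn.dav φ ψ hadm.bl1 hadm.bl2 hle T hT hT1 f h f1 h1 f2 h2 f3 h3
  have hφm : Measurable φ := by
    obtain ⟨⟨L, hL⟩, _⟩ := hadm.bl1
    exact hL.continuous.measurable
  have hψm : Measurable ψ := by
    obtain ⟨⟨L, hL⟩, _⟩ := hadm.bl2
    exact hL.continuous.measurable
  have e1 : ∫⁻ x, ∫⁻ y, ENNReal.ofReal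
        (Real.exp (φ x / T) * f x * KH n K (θ y) T x y * (Real.exp (ψ y / T) * h y)) ∂m ∂m
      = ∫⁻ x, ∫⁻ y, ENNReal.ofReal (Real.exp (φ x / T) * √(F x)
        * ((θ y)⁻¹ * Kf (ga n 1) n (aK K) (bK n K) T x y) * (Real.exp (ψ y / T) * √(H y))) ∂m ∂m := by
    refine lintegral_congr_ae ?_
    filter_upwards [f4] with x hx
    refine lintegral_congr_ae ?_
    filter_upwards [h4] with y hy
    rw [hx, hy, KH_mul (θ y)]
    rfl
  rw [e1] at key
  rw [lintegral_lintegral_swap] at key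
  · exact key
  · have hK : Measurable (Function.uncurry (Kf (M := M) (ga n 1) n (aK K) (bK n K) T)) := meas_Kf
    have a1 : Measurable fun q : M × M => Real.exp (φ q.1 / T) * √(F q.1) :=
      ((hφm.comp measurable_fst).div_const _).exp.mul (hF.comp measurable_fst).sqrt
    have a2 : Measurable fun q : M × M => Real.exp (ψ q.2 / T) * √(H q.2) :=
      ((hψm.comp measurable_snd).div_const _).exp.mul (hH.comp measurable_snd).sqrt
    have a3 : Measurable fun q : M × M => (θ q.2)⁻¹ := (hIn.hN.θ_meas.comp measurable_snd).inv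
    exact ((a1.mul (a3.mul hK)).mul a2).ennreal_ofReal.aemeasurable

/-- second moments: from `a(τ) g` to `τ⁻¹ g` -/
theorem mom_of (hN : NSp m n K θ) {E : Set M} (hE : Good m n K θ E) {η : ℝ} (hη : 0 < η)
    {ε : ℝ} (hε : 0 < ε) :
    ∀ᶠ j in atTop, ∀ x ∈ E, |(tau j)⁻¹ * ((θ x)⁻¹ * ∫ y, kk (ga n 1) n (aK K) (bK n K) η (tau j) x y
      * (dist x y ^ 2 / 2) ∂m) - n / 2| ≤ ε := by
  have hc : Tendsto (fun j => tau j * aK K (tau j)) atTop (𝓝 1) := by
    have h1 : Tendsto tau atTop (𝓝[>] 0) :=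
      tendsto_nhdsWithin_iff.2 ⟨tau_lim, Eventually.of_forall fun j => tau_pos j⟩
    have h2 := (tau_lim.mul ((aK_lim (K := K)).comp h1)).add_const 1
    rw [zero_mul, zero_add] at h2
    refine h2.congr fun j => ?_
    have := (tau_pos j).ne'
    simp only [Function.comp]
    field_simp
    ring
  have hc2 : Tendsto (fun j => (tau j * aK K (tau j))⁻¹) atTop (𝓝 1) := by
    have := hc.inv₀ one_ne_zero
    rwa [inv_one] at this
  have hc3 : Tendsto (fun j => (n : ℝ) / 2 * ((tau j * aK K (tau j))⁻¹ - 1)) atTop (𝓝 0) := by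
    have := (hc2.sub_const 1).const_mul ((n : ℝ) / 2)
    rwa [sub_self, mul_zero] at this
  have v1 : ∀ᶠ j in atTop, |(n : ℝ) / 2 * ((tau j * aK K (tau j))⁻¹ - 1)| < ε / 2 := by
    have := hc3.abs
    rw [abs_zero] at this
    exact this.eventually_lt_const (by positivity)
  have v2 : ∀ᶠ j in atTop, (tau j * aK K (tau j))⁻¹ < 2 := hc2.eventually_lt_const (by norm_num)
  have v3 : ∀ᶠ j in atTop, 0 < (tau j * aK K (tau j))⁻¹ := hc2.eventually_const_lt (by norm_num)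
  filter_upwards [v1, v2, v3, hE.unif η hη (ε / 4) (by positivity)] with j h1 h2 h3 h4 x hx
  have hm := (h4 x hx).2
  have hθ := (hN.θ_pos x).ne'
  have e1 : mom m n K (θ x) η (tau j) x = aK K (tau j)
      * ((θ x)⁻¹ * ∫ y, kk (ga n 1) n (aK K) (bK n K) η (tau j) x y * (dist x y ^ 2 / 2) ∂m) := by
    unfold mom
    rw [← integral_const_mul, ← integral_const_mul,
      ← integral_indicator Metric.isOpen_ball.measurableSet]
    congr 1
    ext y
    rw [kk_eq]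
    by_cases hy : y ∈ Metric.ball x η
    · rw [indicator_of_mem hy, indicator_of_mem hy, KH_mul (θ x)]
      unfold gg
      ring
    · rw [indicator_of_notMem hy, indicator_of_notMem hy]
      ring
  set J := (θ x)⁻¹ * ∫ y, kk (ga n 1) n (aK K) (bK n K) η (tau j) x y * (dist x y ^ 2 / 2) ∂m
    with hJ
  have hτ := tau_pos j
  have ha0 : tau j * aK K (tau j) ≠ 0 := (inv_pos.1 h3).ne'
  have ha1 : aK K (tau j) ≠ 0 := right_ne_zero_of_mul ha0
  have e2 : (tau j)⁻¹ * J - n / 2 = (tau j * aK K (tau j))⁻¹ * (mom m n K (θ x) η (tau j) x - n / 2)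
      + (n : ℝ) / 2 * ((tau j * aK K (tau j))⁻¹ - 1) := by
    rw [e1]
    field_simp
    ring
  rw [e2]
  calc |(tau j * aK K (tau j))⁻¹ * (mom m n K (θ x) η (tau j) x - n / 2)
      + (n : ℝ) / 2 * ((tau j * aK K (tau j))⁻¹ - 1)|
      ≤ |(tau j * aK K (tau j))⁻¹ * (mom m n K (θ x) η (tau j) x - n / 2)|
        + |(n : ℝ) / 2 * ((tau j * aK K (tau j))⁻¹ - 1)| := abs_add_le _ _
    _ ≤ 2 * (ε / 4) + ε / 2 := by
        refine add_le_add ?_ h1.le
        rw [abs_mul, abs_of_pos h3]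
        exact mul_le_mul h2.le hm (abs_nonneg _) (by norm_num)
    _ = ε := by ring

/-- output of block S4 -/
def S4C (m : Measure M) (n : ℕ) (K : ℝ) (θ : M → ℝ) (δ : ℝ) : Prop :=
    ∀ (ρ ρ' σ σ' : M →ₘ[m] ℝ), CD m ρ ρ' → CD m σ σ' →
    ∀ (γ : Measure (M × M)) (φ ψ : M → ℝ), Opt δ (dm ρ) (dm σ) γ φ ψ →
    ∀ E : Set M, Good m n K θ E → ∀ B : Set (M × M), MeasurableSet B → B ⊆ E ×ˢ univ →
    ∀ η : ℝ, 0 < η → ∀ ε : ℝ, 0 < ε → ∀ᶠ j in atTop,
    ∫ z in B, ((tht m n K (θ z.1) η (tau j) z.1)⁻¹ * ∫ x in Metric.ball z.1 η,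
        KH n K (θ z.1) (tau j) z.1 x * (cc δ x z.2 - φ x - ψ z.2) ∂m) ∂γ
      ≤ tau j / 2 * aS n K δ γ φ ρ' + ε * tau j

theorem side_of (h4 : S4C m n K θ δ) (hIn : InS m n K θ δ) {ρ ρ' σ σ' : M →ₘ[m] ℝ}
    (hρ : CD m ρ ρ') (hσ : CD m σ σ') {γ : Measure (M × M)} [IsProbabilityMeasure γ]
    [SigmaFinite m] {φ ψ : M → ℝ}
    (hO : Opt δ (dm ρ) (dm σ) γ φ ψ) {E E' : Set M} (hE : Good m n K θ E)
    {B : Set (M × M)} (hB : MeasurableSet B) (hBE : B ⊆ E ×ˢ E') (hB0 : γ B ≠ 0)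
    {ε₀ : ℝ} (hBd : ∀ z ∈ B, dist z.1 z.2 ^ 2 / 2 ≤ δ - ε₀) {η : ℝ} (hη : 0 < η)
    (hηd : ∀ x y z : M, dist x z ^ 2 / 2 ≤ δ - ε₀ → dist y x < η → dist y z ^ 2 / 2 ≤ δ) :
    SideW m θ (ga n 1) n (aK K) (bK n K) η (ProbabilityTheory.cond γ B) tau φ ψ
      (aS n K δ γ φ ρ' / (γ B).toReal) := by
  have hγB : 0 < (γ B).toReal := ENNReal.toReal_pos hB0 (measure_ne_top γ B)
  refine ⟨?_, ?_, ?_, ?_⟩
  · intro ε hε
    filter_upwards [hE.unif η hη ε hε] with j hj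
    filter_upwards [ae_cond hB] with z hz
    rw [← tht_eq]
    exact (hj z.1 (hBE hz).1).1
  · intro ε hε
    filter_upwards [mom_of hIn.hN hE hη hε] with j hj
    filter_upwards [ae_cond hB] with z hz
    exact hj z.1 (hBE hz).1
  · have : Ioo (0 : ℝ) 1 ∈ 𝓝[>] (0 : ℝ) := Ioo_mem_nhdsGT one_pos
    filter_upwards [this] with T hT
    exact S1_of hIn hO.adm hT.1 hT.2.le
  · intro ε hε
    have h := h4 ρ ρ' σ σ' hρ hσ γ φ ψ hO E hE B hB
      (fun z hz => ⟨(hBE hz).1, mem_univ _⟩) η hη (ε * (γ B).toReal) (by positivity)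
    filter_upwards [h] with j hj
    rw [int_cond]
    have e1 : ∫ z in B, (∫ x, kn m (ga n 1) n (aK K) (bK n K) η (tau j) z.1 x
          * (dist x z.2 ^ 2 / 2 - φ x - ψ z.2) ∂m) ∂γ
        = ∫ z in B, ((tht m n K (θ z.1) η (tau j) z.1)⁻¹ * ∫ x in Metric.ball z.1 η,
          KH n K (θ z.1) (tau j) z.1 x * (cc δ x z.2 - φ x - ψ z.2) ∂m) ∂γ := by
      refine setIntegral_congr_fun hB fun z hz => ?_
      rw [← integral_const_mul, ← integral_indicator Metric.isOpen_ball.measurableSet]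
      congr 1
      ext x
      rw [kn_mul (hIn.hN.θ_pos z.1).ne', ← tht_eq]
      by_cases hx : x ∈ Metric.ball z.1 η
      · rw [indicator_of_mem hx, indicator_of_mem hx]
        have : cc δ x z.2 = dist x z.2 ^ 2 / 2 := min_eq_left (hηd z.1 x z.2 (hBd z hz) hx)
        rw [this]
        ring
      · rw [indicator_of_notMem hx, indicator_of_notMem hx]
        ring
    rw [e1]
    calc (γ B).toReal⁻¹ * ∫ z in B, ((tht m n K (θ z.1) η (tau j) z.1)⁻¹ * ∫ x in Metric.ball z.1 η,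
          KH n K (θ z.1) (tau j) z.1 x * (cc δ x z.2 - φ x - ψ z.2) ∂m) ∂γ
        ≤ (γ B).toReal⁻¹ * (tau j / 2 * aS n K δ γ φ ρ' + ε * (γ B).toReal * tau j) :=
          mul_le_mul_of_nonneg_left hj (inv_nonneg.2 hγB.le)
      _ = tau j * (aS n K δ γ φ ρ' / (γ B).toReal / 2 + ε) := by
          field_simp

/-- the one-sided inequality on `B` -/
theorem oneB (h4 : S4C m n K θ δ) (hIn : InS m n K θ δ) {ρ ρ' σ σ' : M →ₘ[m] ℝ}
    (hρ : CD m ρ ρ') (hσ : CD m σ σ') {γ : Measure (M × M)} [IsProbabilityMeasure γ]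
    [SigmaFinite m] {φ ψ : M → ℝ}
    (hO : Opt δ (dm ρ) (dm σ) γ φ ψ) {E E' : Set M} (hE : Good m n K θ E)
    (hE' : Good m n K θ E')
    {B : Set (M × M)} (hB : MeasurableSet B) (hBE : B ⊆ E ×ˢ E') (hB0 : γ B ≠ 0)
    {ε₀ : ℝ} (hε₀ : 0 < ε₀) (hBd : ∀ z ∈ B, dist z.1 z.2 ^ 2 / 2 ≤ δ - ε₀)
    {r s : M → ℝ} {C C' : ℝ} (r1 : Measurable r) (r2 : ∀ x, 0 ≤ r x) (r3 : ∀ x, r x ≤ C)
    (r4 : ∀ x, x ∉ E → r x = 0)
    (r5 : (ProbabilityTheory.cond γ B).map Prod.fst = m.withDensity fun x => ENNReal.ofReal (r x))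
    (s1 : Measurable s) (s2 : ∀ x, 0 ≤ s x) (s3 : ∀ x, s x ≤ C')
    (s4 : ∀ x, x ∉ E' → s x = 0)
    (s5 : (ProbabilityTheory.cond γ B).map Prod.snd = m.withDensity fun x => ENNReal.ofReal (s x))
    {lam : ℝ} (hlam : 0 < lam) :
    (1 / 2) * (∫ x, r x * Real.log (r x) ∂m - ∫ y, s y * Real.log (s y) ∂m)
      ≤ -((n : ℝ) / 2) * Real.log lam - n / 2 + lam * (aS n K δ γ φ ρ' / (γ B).toReal) / 2
        - K / 6 * ((γ B).toReal⁻¹ * ∫ z in B, cc δ z.1 z.2 ∂γ)
        + (∫ z, Real.log (θ z.2) ∂(ProbabilityTheory.cond γ B)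
          - ∫ z, Real.log (θ z.1) ∂(ProbabilityTheory.cond γ B)) := by
  haveI : IsProbabilityMeasure (ProbabilityTheory.cond γ B) :=
    ProbabilityTheory.cond_isProbabilityMeasure hB0
  have hne : B.Nonempty := by
    by_contra h
    rw [not_nonempty_iff_eq_empty] at h
    exact hB0 (by rw [h, measure_empty])
  obtain ⟨z0, hz0⟩ := hne
  have hεδ : ε₀ ≤ δ := by
    have := hBd z0 hz0
    have h2 : 0 ≤ dist z0.1 z0.2 ^ 2 / 2 := by positivity
    linarith
  obtain ⟨η, hη, hηd⟩ := H47.exists_eta (M := M) hIn.ok.1 hε₀ hεδ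
  obtain ⟨R1, hR1⟩ := hE.bdd.subset_ball z0.1
  obtain ⟨R2, hR2⟩ := hE'.bdd.subset_ball z0.1
  have hS := side_of h4 hIn hρ hσ hO hE hB hBE hB0 hBd hη hηd
  obtain ⟨m1, m2⟩ := meas_adm hO.adm
  have hr4 : ∀ y, y ∉ Metric.ball z0.1 (max R1 R2) → r y = 0 := fun y hy => r4 y fun h =>
    hy (Metric.ball_subset_ball (le_max_left _ _) (hR1 h))
  have hs4 : ∀ y, y ∉ Metric.ball z0.1 (max R1 R2) → s y = 0 := fun y hy => s4 y fun h =>
    hy (Metric.ball_subset_ball (le_max_right _ _) (hR2 h))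
  obtain ⟨c, hc, hcw⟩ := hIn.hN.θ_bd z0.1 (max R1 R2)
  have key := onesideW (K := K) (C := max C C') hIn.hN.fin (ga_one_pos n) hη aK_lim
    hIn.hN.θ_meas hIn.hN.θ_pos hc hcw r1 r2
    (fun y => (r3 y).trans (le_max_left _ _)) hr4 r5 s1 s2
    (fun y => (s3 y).trans (le_max_right _ _)) hs4 s5 m1 m2 hO.bdφ hO.bdψ tau_pos tau_lim hS hlam
  rw [int_cond (fun z : M × M => dist z.1 z.2 ^ 2 / 2)] at key
  have e1 : ∫ z in B, dist z.1 z.2 ^ 2 / 2 ∂γ = ∫ z in B, cc δ z.1 z.2 ∂γ := by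
    refine setIntegral_congr_fun hB fun z hz => ?_
    exact (min_eq_left (by have := hBd z hz; linarith)).symm
  rw [e1] at key
  exact key

/-- **Block S25** from block S4. -/
theorem s25 (h4 : S4C m n K θ δ) (hIn : InS m n K θ δ) :
    ∀ (ρ ρ' σ σ' : M →ₘ[m] ℝ), CD m ρ ρ' → CD m σ σ' →
    ∀ (γ : Measure (M × M)) (φ ψ : M → ℝ), Opt δ (dm ρ) (dm σ) γ φ ψ →
    ∀ E E' : Set M, Good m n K θ E → Good m n K θ E' →
    ∀ B : Set (M × M), MeasurableSet B → B ⊆ E ×ˢ E' → γ B ≠ 0 →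
    ∀ ε₀ : ℝ, 0 < ε₀ → (∀ z ∈ B, dist z.1 z.2 ^ 2 / 2 ≤ δ - ε₀) →
    ∀ lam lam' : ℝ, 0 < lam → 0 < lam' →
    0 ≤ -((n : ℝ) / 2) * Real.log (lam * lam') - n
      + (lam * aS n K δ γ φ ρ' + lam' * aS n K δ γ ψ σ') / (2 * (γ B).toReal)
      - K / (3 * (γ B).toReal) * ∫ z in B, cc δ z.1 z.2 ∂γ := by
  intro ρ ρ' σ σ' hρ hσ γ φ ψ hO E E' hE hE' B hB hBE hB0 ε₀ hε₀ hBd
    lam lam' hlam hlam'
  haveI := prob_plan hρ hO
  haveI : IsLocallyFiniteMeasure m :=
    ⟨fun x => ⟨Metric.ball x 1, Metric.ball_mem_nhds x one_pos, hIn.hN.fin x 1⟩⟩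
  haveI : SigmaFinite m := inferInstance
  have hγB : 0 < (γ B).toReal := ENNReal.toReal_pos hB0 (measure_ne_top γ B)
  obtain ⟨C, r, r1, r2, r3, r4, r5⟩ := dens_cond (m := m) hρ.mt measurable_fst hO.fst hE.meas hB
    (fun z hz => (hBE hz).1) hB0
  obtain ⟨C', s, s1, s2, s3, s4, s5⟩ := dens_cond (m := m) hσ.mt measurable_snd hO.snd hE'.meas hB
    (fun z hz => (hBE hz).2) hB0
  have k1 := oneB h4 hIn hρ hσ hO hE hE' hB hBE hB0 hε₀ hBd r1 r2 r3 r4 r5 s1 s2 s3 s4 s5 hlam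
  -- mirror image
  haveI : IsProbabilityMeasure (γ.map Prod.swap) :=
    Measure.isProbabilityMeasure_map measurable_swap.aemeasurable
  set B' : Set (M × M) := Prod.swap ⁻¹' B with hB'
  have hB'm : MeasurableSet B' := measurable_swap hB
  have hγ' : (γ.map Prod.swap) B' = γ B := by
    rw [Measure.map_apply measurable_swap hB'm, hB', ← preimage_comp, Prod.swap_swap_eq,
      preimage_id]
  have hcond : ProbabilityTheory.cond (γ.map Prod.swap) B'
      = (ProbabilityTheory.cond γ B).map Prod.swap := by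
    unfold ProbabilityTheory.cond
    rw [hγ', Measure.map_smul, Measure.restrict_map measurable_swap hB'm]
    have : Prod.swap ⁻¹' B' = B := by
      rw [hB', ← preimage_comp, Prod.swap_swap_eq, preimage_id]
    rw [this]
  have k2 := oneB h4 hIn hσ hρ hO.swap hE' hE (B := B') hB'm
    (fun z hz => ⟨(hBE hz).2, (hBE hz).1⟩) (by rw [hγ']; exact hB0) hε₀
    (fun z hz => by
      have := hBd _ hz
      simp only [Prod.fst_swap, Prod.snd_swap] at this
      rwa [dist_comm] at this) s1 s2 s3 s4 (by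
      rw [hcond, Measure.map_map measurable_fst measurable_swap]
      exact s5) r1 r2 r3 r4 (by
      rw [hcond, Measure.map_map measurable_snd measurable_swap]
      exact r5) hlam'
  have e1 : ∫ z in B', cc δ z.1 z.2 ∂(γ.map Prod.swap) = ∫ z in B, cc δ z.1 z.2 ∂γ := by
    have h := (MeasurableEquiv.prodComm (α := M) (β := M)).measurableEmbedding.setIntegral_map
      (μ := γ) (fun z : M × M => cc δ z.1 z.2) B'
    have h2 : (MeasurableEquiv.prodComm (α := M) (β := M) : M × M → M × M) = Prod.swap := rfl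
    rw [h2] at h
    rw [h]
    have : Prod.swap ⁻¹' B' = B := by
      rw [hB', ← preimage_comp, Prod.swap_swap_eq, preimage_id]
    rw [this]
    refine integral_congr_ae (Eventually.of_forall fun z => ?_)
    simp only [Prod.fst_swap, Prod.snd_swap]
    exact cc_comm δ _ _
  have e2 : aS n K δ (γ.map Prod.swap) ψ σ' = aS n K δ γ ψ σ' := by
    unfold aS
    have : ∫ z, cc δ z.1 z.2 ∂(γ.map Prod.swap) = ∫ z, cc δ z.1 z.2 ∂γ := by
      have h := (MeasurableEquiv.prodComm (α := M) (β := M)).measurableEmbedding.integral_map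
        (μ := γ) (fun z : M × M => cc δ z.1 z.2)
      have h2 : (MeasurableEquiv.prodComm (α := M) (β := M) : M × M → M × M) = Prod.swap := rfl
      rw [h2] at h
      rw [h]
      refine integral_congr_ae (Eventually.of_forall fun z => ?_)
      simp only [Prod.fst_swap, Prod.snd_swap]
      exact cc_comm δ _ _
    rw [this]
  have esw : ∀ f : M × M → ℝ, ∫ z, f z ∂((ProbabilityTheory.cond γ B).map Prod.swap)
      = ∫ z, f z.swap ∂(ProbabilityTheory.cond γ B) := by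
    intro f
    have h := (MeasurableEquiv.prodComm (α := M) (β := M)).measurableEmbedding.integral_map
      (μ := ProbabilityTheory.cond γ B) f
    exact h
  rw [hγ', e1, e2, hcond, esw, esw] at k2
  simp only [Prod.fst_swap, Prod.snd_swap] at k2
  rw [Real.log_mul hlam.ne' hlam'.ne']
  have e3 : (lam * aS n K δ γ φ ρ' + lam' * aS n K δ γ ψ σ') / (2 * (γ B).toReal)
      = lam * (aS n K δ γ φ ρ' / (γ B).toReal) / 2 + lam' * (aS n K δ γ ψ σ' / (γ B).toReal) / 2 := by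
    field_simp
  have e4 : K / (3 * (γ B).toReal) * ∫ z in B, cc δ z.1 z.2 ∂γ
      = 2 * (K / 6 * ((γ B).toReal⁻¹ * ∫ z in B, cc δ z.1 z.2 ∂γ)) := by
    field_simp
    ring
  rw [e3, e4]
  linarith

/-- **Block S25**, density function. -/
theorem blk_S25_of (h4 : Blk_S4.{u}) : Blk_S25.{u} := by
  intro M _ _ _ _ m n K θ δ hIn
  exact s25 (h4 m n K θ δ hIn) hIn

end Vale.Agent.P233.N2.H883
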