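import Vale.Agent.P233.N2.InSGlue
import Vale.Agent.P233.N2.S56
import Vale.Agent.P233.N2.S4
import Vale.Agent.P233.N2.Final
import Vale.Agent.P233.N2.H883.S25
import Vale.Agent.P233.N2.H982.RHout
import Vale.Agent.P233.N2.H339.CY4
import Vale.Agent.P233.N2.H732.BlkH5
import Vale.Agent.P233.N2.H368.RADone
import Vale.Agent.P233.N2.H886.KD

/-! P233, stage 3, Theorem N with a density function: the bridge between the two interface texts
(`N2.NSp2`, helper254; `N2.RA.NSp`, helper994) and the assembly of `PartN2` (helper883). -/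

set_option linter.all false

open MeasureTheory Filter Topology Set
open scoped ENNReal NNReal MeasureTheory

universe u

namespace Vale.Agent.P233.N2.H883

open Vale.Agent.P233.RA (OutC K1S KA2 KA3 Okd)

section

variable {M : Type u} [MetricSpace M] [MeasurableSpace M] {m : Measure M} {n : ℕ} {K : ℝ}
  {θ : M → ℝ} {δ : ℝ}

theorem toR (h : N2.NSp2 m n K θ) : N2.RA.NSp m n K θ where
  n_pos := h.n_pos
  proper := h.proper
  geo := h.geo
  full := h.full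
  fin := h.fin
  growth := h.growth
  upper := h.upper
  θ_meas := h.th_meas
  θ_bd := h.th_bd
  dens := h.dens
  quadratic := h.quadratic
  s2l := h.s2l
  ww_slope := h.ww_grad
  lc := h.lc

theorem inR (h : N2.InS m n K θ δ) : N2.RA.InS m n K θ δ where
  hN := toR h.hN
  ok := h.ok
  sg := h.sg
  flow := h.flow
  deriv := h.deriv
  lip := h.lip
  drift := h.drift
  cy := h.cy
  dav := h.dav
  asy := h.asy

theorem goodR {E : Set M} (h : N2.Good m n K θ E) : N2.RA.Good m n K θ E :=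
  ⟨h.meas, h.bdd, h.unif⟩

theorem goodN {E : Set M} (h : N2.RA.Good m n K θ E) : N2.Good m n K θ E :=
  ⟨h.meas, h.bdd, h.unif⟩

end

theorem forN {P : ∀ (M : Type u) [MetricSpace M] [MeasurableSpace M] (m : Measure M) (n : ℕ)
    (K : ℝ) (θ : M → ℝ), Prop} (h : N2.RA.ForN.{u} P) : N2.ForN.{u} P :=
  fun M _ _ _ _ _ m n K θ hN => h M m n K θ (toR hN)

theorem blk_H0 : N2.Blk_H0.{u} := forN H982.blk_H0
theorem blk_H1 : N2.Blk_H1.{u} := forN H982.blk_H1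
theorem blk_H2a : N2.Blk_H2a.{u} := forN H982.blk_H2a
theorem blk_H2b : N2.Blk_H2b.{u} := forN H982.blk_H2b
theorem blk_H2c : N2.Blk_H2c.{u} := forN H982.blk_H2c
theorem blk_H3b : N2.Blk_H3b.{u} := forN H982.blk_H3b
theorem blk_H4 : N2.Blk_H4.{u} := forN H339.blk_H4
theorem blk_S1 : N2.Blk_S1.{u} := forN (H732.blk_S1_of H339.blk_H4)

theorem blk_InS : N2.Blk_InS.{u} := N2.inS_of blk_H1 blk_H2a blk_H2b blk_H2c blk_H3b blk_H4 blk_S1

theorem blk_S4_of (h : N2.RA.Blk_S4.{u}) : N2.Blk_S4.{u} := by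
  intro M _ _ _ _ m n K θ δ hS ρ ρ' σ σ' hρ hσ γ φ ψ ho E hE B hB hBE η hη ε hε
  exact h m n K θ δ (inR hS) ρ ρ' σ σ' hρ hσ γ φ ψ ho E (goodR hE) B hB hBE η hη ε hε

theorem blk_S25_of' (h4 : N2.Blk_S4.{u}) : N2.Blk_S25.{u} := by
  intro M _ _ _ _ m n K θ δ hIn ρ ρ' σ σ' hρ hσ γ φ ψ hO E E' hE hE' B hB hBE hB0 ε₀ hε₀ hBd
    lam lam' hlam hlam'
  exact s25 (fun ρ ρ' σ σ' hρ hσ γ φ ψ ho E hE B hB hBE η hη ε hε =>
      h4 m n K θ δ hIn ρ ρ' σ σ' hρ hσ γ φ ψ ho E (goodN hE) B hB hBE η hη ε hε) (inR hIn)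
    ρ ρ' σ σ' hρ hσ γ φ ψ hO E E' (goodR hE) (goodR hE') B hB hBE hB0 ε₀ hε₀ hBd lam lam'
    hlam hlam'

theorem blk_ST_of4 (h4 : N2.Blk_S4.{u}) : N2.Blk_ST.{u} :=
  S866.blk_ST_of' blk_InS N2.blk_S3 h4 (blk_S25_of' h4)

/-- Theorem N with a density function, from the open blocks S4, KA2, KA3. -/
theorem partN2_of (h4 : N2.Blk_S4.{u}) (h2 : N2.RA.Blk_KA2.{u}) (h3 : N2.RA.Blk_KA3.{u}) :
    N2.PartN2.{u} := by
  intro M _ _ _ _ _ m n K θ hN
  have h := toR hN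
  have a1 : OutC m n K := blk_ST_of4 h4 M m n K θ hN
  have a2 : K1S m n K := H368.blk_K1S H982.blk_H2a H982.blk_H2b M m n K θ h a1
  have a3 : (sob m).BEi K := N2.RA.blk_KD2 M m n K θ h (h2 M m n K θ h a2)
  exact N2.RA.blk_KD3 M m n K θ h a3 (h3 M m n K θ h a2 a3)

theorem blk_N2_of (h4 : N2.Blk_S4.{u}) (h2 : N2.RA.Blk_KA2.{u}) (h3 : N2.RA.Blk_KA3.{u}) :
    CD.Blk_N2.{u} := N2.blk_N2_of (partN2_of h4 h2 h3)

/-- Theorem N with a density function, from the open blocks KA2, KA3. -/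
theorem partN2_of2 (h2 : N2.RA.Blk_KA2.{u}) (h3 : N2.RA.Blk_KA3.{u}) : N2.PartN2.{u} :=
  partN2_of N2.S4.blk_S4 h2 h3

theorem blk_N2_of2 (h2 : N2.RA.Blk_KA2.{u}) (h3 : N2.RA.Blk_KA3.{u}) : CD.Blk_N2.{u} :=
  blk_N2_of N2.S4.blk_S4 h2 h3

end Vale.Agent.P233.N2.H883
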